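import Vale.Agent.P181.Psi

namespace Vale.Agent.Results.P181.Quadratic

open Vale.Agent.P181

theorem result (V : Type*) [AddCommGroup V] [Module ℂ V] [FiniteDimensional ℂ V]
    (a b : ℕ) (ha : 1 ≤ a) (hb : (a - 1) ^ 2 ≤ b) :
    ∃ Ψ : Pleth a b V → Pleth b a V, IsLinearMap ℂ Ψ ∧
      (∀ v : Fin a → Fin b → V,
        Ψ (dprod v) = ∑ σ : Fin a → Equiv.Perm (Fin b), dprod fun j i => v i (σ i j)) ∧
      Function.Injective Ψ ∧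
      ∀ (g : V ≃ₗ[ℂ] V) (x : Pleth a b V), Ψ (act a b g x) = act b a g (Ψ x) := by
  obtain ⟨a, rfl⟩ : ∃ c, a = c + 1 := ⟨a - 1, by omega⟩
  obtain ⟨Ψ, hΨ⟩ := exists_Psi (V := V) (a + 1) b
  exact ⟨Ψ, Ψ.isLinear, hΨ, Psi_inj (by simpa using hb) Ψ hΨ,
    fun g x => DFunLike.congr_fun (Psi_equiv Ψ hΨ g) x⟩

end Vale.Agent.Results.P181.Quadratic
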